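import Mathlib

open MeasureTheory Set

namespace Vale.Agent.P028

/-- points of the circle with `q x` within `ρ` of `γ` -/
def E (γ : UnitAddCircle) (ρ : ℝ) (q : ℕ) : Set UnitAddCircle := {x | ‖q • x - γ‖ ≤ ρ}

lemma measurable_E (γ : UnitAddCircle) (ρ : ℝ) (q : ℕ) : MeasurableSet (E γ ρ q) := by
  have : IsClosed (E γ ρ q) := by
    apply isClosed_le
    · fun_prop
    · exact continuous_const
  exact this.measurableSet

lemma E_eq (γ : UnitAddCircle) (ρ : ℝ) (q : ℕ) :
    E γ ρ q = (fun x : UnitAddCircle => (q : ℤ) • x) ⁻¹' Metric.closedBall γ ρ := by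
  ext x
  simp only [E, mem_ofPred_eq, mem_preimage, Metric.mem_closedBall, dist_eq_norm, natCast_zsmul]

lemma vol_E (γ : UnitAddCircle) {ρ : ℝ} (h : 2 * ρ ≤ 1) {q : ℕ} (hq : 0 < q) :
    volume (E γ ρ q) = ENNReal.ofReal (2 * ρ) := by
  have hne : (q : ℤ) ≠ 0 := by exact_mod_cast hq.ne'
  have hmp : MeasurePreserving (fun x : UnitAddCircle => (q : ℤ) • x) volume volume :=
    MeasureTheory.Measure.measurePreserving_zsmul volume hne
  rw [E_eq, hmp.measure_preimage
    Metric.isClosed_closedBall.measurableSet.nullMeasurableSet, AddCircle.volume_closedBall,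
    min_eq_right h]

lemma count_real (w : ℝ) {q r : ℕ} (hq : 0 < q) {ρ : ℝ} (h0 : 0 ≤ ρ) :
    (((Finset.range q).filter (fun j : ℕ =>
      |(w + (r * j : ℝ) / q) - round (w + (r * j : ℝ) / q)| ≤ ρ)).card : ℝ)
      ≤ 2 * ρ * q + Nat.gcd q r := by
  classical
  set g := Nat.gcd q r with hg
  have hgpos : 0 < g := Nat.gcd_pos_of_pos_left _ hq
  obtain ⟨q', hq'⟩ := Nat.gcd_dvd_left q r
  obtain ⟨r', hr'⟩ := Nat.gcd_dvd_right q r
  rw [← hg] at hq' hr'
  have hq'pos : 0 < q' := by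
    rcases Nat.eq_zero_or_pos q' with h | h
    · rw [h] at hq'; omega
    · exact h
  have hcop : Nat.Coprime q' r' := by
    have : g * Nat.gcd q' r' = g := by
      rw [← Nat.gcd_mul_left, ← hq', ← hr']
    exact Nat.eq_of_mul_eq_mul_left hgpos (by rw [this, mul_one])
  set s := (Finset.range q).filter (fun j : ℕ =>
      |(w + (r * j : ℝ) / q) - round (w + (r * j : ℝ) / q)| ≤ ρ) with hs
  set f : ℕ → ℤ := fun j => (r' : ℤ) * j - round (w + (r * j : ℝ) / q) * q' with hf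
  have hgR : (g : ℝ) ≠ 0 := by exact_mod_cast hgpos.ne'
  have hq'R : (0 : ℝ) < q' := by exact_mod_cast hq'pos
  have hqR : (q : ℝ) = g * q' := by rw [hq']; push_cast; ring
  have hrR : (r : ℝ) = g * r' := by rw [hr']; push_cast; ring
  have hfib : ∀ a ∈ s.image f, (s.filter (fun x => f x = a)).card ≤ g := by
    intro a _
    have hinj : ((s.filter (fun x => f x = a)).image (fun j => j / q')).card
        = (s.filter (fun x => f x = a)).card := by
      apply Finset.card_image_of_injOn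
      intro j hj k hk hjk
      simp only [Finset.coe_filter, mem_ofPred_eq] at hj hk
      have h1 : f j = f k := hj.2.trans hk.2.symm
      have h2 : ((r' * j : ℕ) : ℤ) ≡ ((r' * k : ℕ) : ℤ) [ZMOD (q' : ℤ)] := by
        rw [Int.modEq_iff_dvd]
        refine ⟨round (w + (r * k : ℝ) / q) - round (w + (r * j : ℝ) / q), ?_⟩
        simp only [hf] at h1
        push_cast
        linarith [h1]
      have h3 : r' * j ≡ r' * k [MOD q'] := (Int.natCast_modEq_iff).1 h2
      have h4 : j ≡ k [MOD q'] := Nat.ModEq.cancel_left_of_coprime hcop h3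
      have h5 : j % q' = k % q' := h4
      have h6 : j / q' = k / q' := hjk
      rw [← Nat.div_add_mod j q', ← Nat.div_add_mod k q', h5, h6]
    rw [← hinj]
    have hsub : (s.filter (fun x => f x = a)).image (fun j => j / q') ⊆ Finset.range g := by
      intro y hy
      simp only [Finset.mem_image, Finset.mem_filter, hs, Finset.mem_range] at hy ⊢
      obtain ⟨j, ⟨⟨hj, _⟩, _⟩, rfl⟩ := hy
      apply Nat.div_lt_of_lt_mul
      rw [hq'] at hj
      linarith [hj, mul_comm g q']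
    calc _ ≤ (Finset.range g).card := Finset.card_le_card hsub
      _ = g := Finset.card_range g
  have hcard := Finset.card_le_mul_card_image s g hfib
  have himg : s.image f ⊆ Finset.Icc ⌈-(q' : ℝ) * (w + ρ)⌉ ⌊(q' : ℝ) * (ρ - w)⌋ := by
    intro m hm
    simp only [Finset.mem_image] at hm
    obtain ⟨j, hj, rfl⟩ := hm
    simp only [hs, Finset.mem_filter] at hj
    have habs := hj.2
    have heq : (w + (r * j : ℝ) / q) - round (w + (r * j : ℝ) / q)
        = w + (f j : ℝ) / q' := by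
      simp only [hf]
      push_cast
      rw [hqR, hrR]
      field_simp
      ring
    rw [heq, abs_le] at habs
    rw [Finset.mem_Icc, Int.ceil_le, Int.le_floor]
    have hx : (f j : ℝ) / q' * q' = f j := by field_simp
    constructor
    · have := mul_le_mul_of_nonneg_right habs.1 hq'R.le
      nlinarith [this, hx]
    · have := mul_le_mul_of_nonneg_right habs.2 hq'R.le
      nlinarith [this, hx]
  have hIcc : ((Finset.Icc ⌈-(q' : ℝ) * (w + ρ)⌉ ⌊(q' : ℝ) * (ρ - w)⌋).card : ℝ)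
      ≤ 2 * ρ * q' + 1 := by
    rw [Int.card_Icc]
    have h1 : ((⌊(q' : ℝ) * (ρ - w)⌋ : ℤ) : ℝ) ≤ (q' : ℝ) * (ρ - w) := Int.floor_le _
    have h2 : -(q' : ℝ) * (w + ρ) ≤ ((⌈-(q' : ℝ) * (w + ρ)⌉ : ℤ) : ℝ) := Int.le_ceil _
    rcases le_or_gt 0 (⌊(q' : ℝ) * (ρ - w)⌋ + 1 - ⌈-(q' : ℝ) * (w + ρ)⌉) with h | h
    · have h3 : (((⌊(q' : ℝ) * (ρ - w)⌋ + 1 - ⌈-(q' : ℝ) * (w + ρ)⌉).toNat : ℤ) : ℝ)
          = ((⌊(q' : ℝ) * (ρ - w)⌋ + 1 - ⌈-(q' : ℝ) * (w + ρ)⌉ : ℤ) : ℝ) := by
        rw [Int.toNat_of_nonneg h]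
      have h4 : (((⌊(q' : ℝ) * (ρ - w)⌋ + 1 - ⌈-(q' : ℝ) * (w + ρ)⌉).toNat : ℕ) : ℝ)
          = ((⌊(q' : ℝ) * (ρ - w)⌋ + 1 - ⌈-(q' : ℝ) * (w + ρ)⌉ : ℤ) : ℝ) := by
        rw [← h3]; norm_cast
      rw [h4]
      push_cast
      nlinarith
    · rw [Int.toNat_of_nonpos h.le]
      have : 0 ≤ 2 * ρ * (q' : ℝ) := by positivity
      simp only [Nat.cast_zero]
      linarith
  have hfin : (s.card : ℝ) ≤ g * (2 * ρ * q' + 1) := by
    calc (s.card : ℝ) ≤ ((g * (s.image f).card : ℕ) : ℝ) := by exact_mod_cast hcard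
      _ = g * ((s.image f).card : ℝ) := by push_cast; ring
      _ ≤ g * (2 * ρ * q' + 1) := by
          apply mul_le_mul_of_nonneg_left _ (by positivity)
          refine le_trans ?_ hIcc
          exact_mod_cast Finset.card_le_card himg
  calc (s.card : ℝ) ≤ g * (2 * ρ * q' + 1) := hfin
    _ = 2 * ρ * q + g := by rw [hqR]; ring

lemma count (z : UnitAddCircle) {q r : ℕ} (hq : 0 < q) {ρ : ℝ} (h0 : 0 ≤ ρ) :
    (((Finset.range q).filter (fun j : ℕ =>
      ‖z + (((r * j : ℝ) / q : ℝ) : UnitAddCircle)‖ ≤ ρ)).card : ℝ)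
      ≤ 2 * ρ * q + Nat.gcd q r := by
  obtain ⟨w, rfl⟩ := QuotientAddGroup.mk_surjective z
  have h := count_real w (q := q) (r := r) hq h0
  refine le_trans (le_of_eq ?_) h
  congr 2
  apply Finset.filter_congr
  intro j _
  have : ((QuotientAddGroup.mk w : UnitAddCircle) + (((r * j : ℝ) / q : ℝ) : UnitAddCircle))
      = ((w + (r * j : ℝ) / q : ℝ) : UnitAddCircle) := by
    rfl
  rw [this, UnitAddCircle.norm_eq]

lemma overlap_ennreal (γ : UnitAddCircle) {ρ σ : ℝ} (h0 : 0 ≤ σ) {q r : ℕ} (hq : 0 < q) :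
    (q : ENNReal) * volume (E γ ρ q ∩ E γ σ r)
      ≤ ENNReal.ofReal (2 * σ * q + Nat.gcd q r) * volume (E γ ρ q) := by
  classical
  have hqR : (q : ℝ) ≠ 0 := by exact_mod_cast hq.ne'
  set h : ℕ → UnitAddCircle := fun j => (((j : ℝ) / q : ℝ) : UnitAddCircle) with hh
  have hq0 : ∀ j, q • h j = 0 := by
    intro j
    change q • ((((j : ℝ) / q : ℝ)) : UnitAddCircle) = 0
    rw [← AddCircle.coe_nsmul, nsmul_eq_mul]
    rw [mul_div_cancel₀ _ hqR]
    have : ((j : ℝ) : UnitAddCircle) = ((j • (1 : ℝ) : ℝ) : UnitAddCircle) := by simp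
    have h1 : ((1 : ℝ) : UnitAddCircle) = 0 := AddCircle.coe_period 1
    rw [this, AddCircle.coe_nsmul, h1, smul_zero]
  have hr : ∀ j, r • h j = (((r * j : ℝ) / q : ℝ) : UnitAddCircle) := by
    intro j
    change r • ((((j : ℝ) / q : ℝ)) : UnitAddCircle) = _
    rw [← AddCircle.coe_nsmul, nsmul_eq_mul, mul_div_assoc]
  set A : ℕ → Set UnitAddCircle := fun j => (fun x => x + h j) ⁻¹' E γ σ r with hA
  have hAm : ∀ j, MeasurableSet (A j) := by
    intro j
    exact (measurable_add_const _) (measurable_E _ _ _)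
  have hEq : ∀ j, (fun x => x + h j) ⁻¹' E γ ρ q = E γ ρ q := by
    intro j
    ext x
    simp only [E, mem_preimage, mem_ofPred_eq, smul_add, hq0 j, add_zero]
  have hvol : ∀ j, volume (E γ ρ q ∩ E γ σ r) = volume (E γ ρ q ∩ A j) := by
    intro j
    rw [← measure_preimage_add_right volume (h j) (E γ ρ q ∩ E γ σ r), preimage_inter, hEq j]
  have hsum : (q : ENNReal) * volume (E γ ρ q ∩ E γ σ r)
      = ∑ j ∈ Finset.range q, volume (E γ ρ q ∩ A j) := by
    rw [Finset.sum_congr rfl (fun j _ => (hvol j).symm)]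
    simp
  rw [hsum]
  have h1 : ∀ j, volume (E γ ρ q ∩ A j)
      = ∫⁻ x in E γ ρ q, (A j).indicator (fun _ => (1 : ENNReal)) x := by
    intro j
    rw [lintegral_indicator (hAm j)]
    simp [Measure.restrict_apply (hAm j), inter_comm]
  rw [Finset.sum_congr rfl (fun j _ => h1 j), ← lintegral_finsetSum]
  · calc ∫⁻ x in E γ ρ q, ∑ j ∈ Finset.range q, (A j).indicator (fun _ => (1 : ENNReal)) x
        ≤ ∫⁻ _ in E γ ρ q, ENNReal.ofReal (2 * σ * q + Nat.gcd q r) := by
          apply lintegral_mono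
          intro x
          have hc := count (r • x - γ) (q := q) (r := r) hq h0
          have h2 : (∑ j ∈ Finset.range q, (A j).indicator (fun _ => (1 : ENNReal)) x)
              = (((Finset.range q).filter (fun j : ℕ =>
                ‖(r • x - γ) + (((r * j : ℝ) / q : ℝ) : UnitAddCircle)‖ ≤ σ)).card : ENNReal) := by
            rw [Finset.card_eq_sum_ones, Finset.sum_filter, Nat.cast_sum]
            apply Finset.sum_congr rfl
            intro j _
            have h3 : x ∈ A j ↔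
                ‖(r • x - γ) + (((r * j : ℝ) / q : ℝ) : UnitAddCircle)‖ ≤ σ := by
              simp only [hA, mem_preimage, E, mem_ofPred_eq, smul_add, hr j]
              rw [show r • x + (((r * j : ℝ) / q : ℝ) : UnitAddCircle) - γ
                = (r • x - γ) + (((r * j : ℝ) / q : ℝ) : UnitAddCircle) by abel]
            by_cases hx : x ∈ A j
            · rw [indicator_of_mem hx, if_pos (h3.1 hx)]; simp
            · rw [indicator_of_notMem hx, if_neg (fun h => hx (h3.2 h))]; simp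
          simp only []
          rw [h2]
          rw [show (((Finset.range q).filter (fun j : ℕ =>
                ‖(r • x - γ) + (((r * j : ℝ) / q : ℝ) : UnitAddCircle)‖ ≤ σ)).card : ENNReal)
                = ENNReal.ofReal (((Finset.range q).filter (fun j : ℕ =>
                ‖(r • x - γ) + (((r * j : ℝ) / q : ℝ) : UnitAddCircle)‖ ≤ σ)).card : ℝ) by
              rw [ENNReal.ofReal_natCast]]
          exact ENNReal.ofReal_le_ofReal hc
      _ = ENNReal.ofReal (2 * σ * q + Nat.gcd q r) * volume (E γ ρ q) := by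
          rw [lintegral_const]; simp
  · intro j _
    exact (measurable_const.indicator (hAm j))

lemma overlap (γ : UnitAddCircle) {ρ σ : ℝ} (hρ0 : 0 ≤ ρ) (hρ : 2 * ρ ≤ 1) (h0 : 0 ≤ σ)
    {q r : ℕ} (hq : 0 < q) :
    volume.real (E γ ρ q ∩ E γ σ r) ≤ 2 * ρ * (2 * σ) + 2 * ρ * (Nat.gcd q r : ℝ) / q := by
  have hqR : (0 : ℝ) < q := by exact_mod_cast hq
  have h1 := overlap_ennreal γ (ρ := ρ) (σ := σ) h0 (q := q) (r := r) hq
  rw [vol_E γ hρ hq] at h1
  have hfin : ENNReal.ofReal (2 * σ * q + Nat.gcd q r) * ENNReal.ofReal (2 * ρ) ≠ ⊤ :=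
    ENNReal.mul_ne_top ENNReal.ofReal_ne_top ENNReal.ofReal_ne_top
  have h2 := ENNReal.toReal_mono hfin h1
  rw [ENNReal.toReal_mul, ENNReal.toReal_mul, ENNReal.toReal_ofReal (by positivity),
    ENNReal.toReal_ofReal (by positivity)] at h2
  simp only [ENNReal.toReal_natCast] at h2
  have h3 : volume.real (E γ ρ q ∩ E γ σ r) = (volume (E γ ρ q ∩ E γ σ r)).toReal := rfl
  rw [h3]
  have h4 : (volume (E γ ρ q ∩ E γ σ r)).toReal
      ≤ (2 * σ * q + Nat.gcd q r) * (2 * ρ) / q := by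
    rw [le_div_iff₀ hqR]; linarith
  refine h4.trans (le_of_eq ?_)
  field_simp

lemma real_E (γ : UnitAddCircle) {ρ : ℝ} (h0 : 0 ≤ ρ) (h : 2 * ρ ≤ 1) {q : ℕ} (hq : 0 < q) :
    volume.real (E γ ρ q) = 2 * ρ := by
  rw [measureReal_def, vol_E γ h hq, ENNReal.toReal_ofReal (by positivity)]

/-- no overlap unless `(q - r)/gcd(q,r) * γ` is close to an integer -/
lemma disjoint_E (γ : UnitAddCircle) {ρ σ : ℝ} {q r : ℕ}
    (h : ((r / Nat.gcd q r : ℕ) : ℝ) * ρ + ((q / Nat.gcd q r : ℕ) : ℝ) * σ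
      < ‖((q / Nat.gcd q r : ℕ) : ℤ) • γ - ((r / Nat.gcd q r : ℕ) : ℤ) • γ‖) :
    E γ ρ q ∩ E γ σ r = ∅ := by
  rw [eq_empty_iff_forall_notMem]
  rintro x ⟨hx1, hx2⟩
  simp only [E, mem_ofPred_eq] at hx1 hx2
  set g := Nat.gcd q r
  have hcomm : (r / g) * q = (q / g) * r := by
    obtain ⟨a, ha⟩ := Nat.gcd_dvd_left q r
    obtain ⟨b, hb⟩ := Nat.gcd_dvd_right q r
    rcases Nat.eq_zero_or_pos g with hg | hg
    · rw [hg]; simp
    · have e1 : q / g = a := by
        conv_lhs => rw [ha]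
        exact Nat.mul_div_cancel_left a hg
      have e2 : r / g = b := by
        conv_lhs => rw [hb]
        exact Nat.mul_div_cancel_left b hg
      rw [e1, e2]
      conv_lhs => rw [ha]
      conv_rhs => rw [hb]
      ring
  have hid : ((q / g : ℕ) : ℤ) • γ - ((r / g : ℕ) : ℤ) • γ
      = (r / g : ℕ) • (q • x - γ) - (q / g : ℕ) • (r • x - γ) := by
    rw [natCast_zsmul, natCast_zsmul, smul_sub, smul_sub, ← mul_smul, ← mul_smul, hcomm]
    abel
  rw [hid] at h
  have h1 : ‖(r / g : ℕ) • (q • x - γ) - (q / g : ℕ) • (r • x - γ)‖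
      ≤ ((r / g : ℕ) : ℝ) * ρ + ((q / g : ℕ) : ℝ) * σ := by
    calc _ ≤ ‖(r / g : ℕ) • (q • x - γ)‖ + ‖(q / g : ℕ) • (r • x - γ)‖ := norm_sub_le _ _
      _ ≤ ((r / g : ℕ) : ℝ) * ‖q • x - γ‖ + ((q / g : ℕ) : ℝ) * ‖r • x - γ‖ := by
          gcongr
          · exact norm_nsmul_le
          · exact norm_nsmul_le
      _ ≤ _ := by gcongr
  linarith

end Vale.Agent.P028
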