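import Mathlib

open MeasureTheory Set

namespace Vale.Agent.P028

/-- distance to the nearest integer -/
noncomputable def nd (t : ℝ) : ℝ := |t - round t|

/-- `W_γ(ψ)` -/
def W (γ : ℝ) (ψ : ℕ → ℝ) : Set ℝ := {x | {q : ℕ | 0 < q ∧ nd (q * x - γ) < ψ q}.Infinite}

/-- `q/g` for `g = gcd (q, r)` -/
def red (q r : ℕ) : ℕ := q / Nat.gcd q r

/-- near-coincidence: the sets for `q` and `r` may meet in an unusually large set -/
def Near (γ : ℝ) (ψ : ℕ → ℝ) (q r : ℕ) : Prop :=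
  nd (((red q r : ℝ) - (red r q : ℝ)) * γ) < (red r q : ℝ) * ψ q + (red q r : ℝ) * ψ r

open Classical in
/-- weight of the near-coincidences in a finite set `A` -/
noncomputable def coinc (γ : ℝ) (ψ : ℕ → ℝ) (A : Finset ℕ) : ℝ :=
  ∑ q ∈ A, ∑ r ∈ A, if r < q ∧ Near γ ψ q r then
    (Nat.gcd q r : ℝ) * min (min (ψ q) 1 / q) (min (ψ r) 1 / r) else 0

/-- the criterion: arbitrarily far out there are finite sets of large mass on which the
near-coincidences are negligible against the square of the mass -/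
def Crit (γ : ℝ) (ψ : ℕ → ℝ) : Prop :=
  ∀ (N : ℕ) (K : ℝ), ∃ A : Finset ℕ, (∀ q ∈ A, N < q) ∧ K ≤ ∑ q ∈ A, min (ψ q) 1 ∧
    K * coinc γ ψ A ≤ (∑ q ∈ A, min (ψ q) 1) ^ 2

/-- unbounded mass per divisor bound -/
def DivMass (ψ : ℕ → ℝ) : Prop :=
  ∀ K : ℝ, ∃ (D : ℕ) (A : Finset ℕ), (∀ q ∈ A, 0 < q ∧ q.divisors.card ≤ D) ∧
    K * D < ∑ q ∈ A, min (ψ q) 1

end Vale.Agent.P028
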