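import Vale.Agent.P028.Moment
import Vale.Agent.P028.Defs

open MeasureTheory Set

namespace Vale.Agent.P028

lemma norm_eq_nd (t : ℝ) : ‖(t : UnitAddCircle)‖ = nd t := UnitAddCircle.norm_eq

/-- half radius -/
noncomputable def rad (ψ : ℕ → ℝ) (q : ℕ) : ℝ := min (ψ q) 1 / 2

lemma pair_bound (γ : ℝ) (ψ : ℕ → ℝ) (hψ : ∀ q, 0 ≤ ψ q) {q r : ℕ} (hq : 0 < q) (hr : 0 < r) :
    volume.real (E (γ : UnitAddCircle) (rad ψ q) q ∩ E (γ : UnitAddCircle) (rad ψ r) r)
      ≤ min (ψ q) 1 * min (ψ r) 1 + (Nat.gcd q r : ℝ) *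
        min (min (ψ q) 1 / q) (min (ψ r) 1 / r) := by
  have hw : ∀ s, 0 ≤ min (ψ s) 1 := fun s => le_min (hψ s) zero_le_one
  have hr0 : ∀ s, 0 ≤ rad ψ s := fun s => div_nonneg (hw s) (by norm_num)
  have hr1 : ∀ s, 2 * rad ψ s ≤ 1 := by
    intro s
    have := min_le_right (ψ s) 1
    unfold rad; linarith
  have h2 : ∀ s, 2 * rad ψ s = min (ψ s) 1 := by intro s; unfold rad; ring
  have e1 := overlap (γ : UnitAddCircle) (hr0 q) (hr1 q) (hr0 r) (q := q) (r := r) hq
  have e2 := overlap (γ : UnitAddCircle) (hr0 r) (hr1 r) (hr0 q) (q := r) (r := q) hr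
  rw [inter_comm, Nat.gcd_comm] at e2
  rw [h2, h2] at e1 e2
  rcases le_total (min (ψ q) 1 / q) (min (ψ r) 1 / r) with h | h
  · rw [min_eq_left h]
    refine e1.trans (le_of_eq ?_)
    ring
  · rw [min_eq_right h]
    refine e2.trans (le_of_eq ?_)
    ring

lemma not_near (γ : ℝ) (ψ : ℕ → ℝ) (hψ : ∀ q, 0 ≤ ψ q) {q r : ℕ} (hq : 0 < q) (hr : 0 < r)
    (h : ¬ Near γ ψ q r) :
    E (γ : UnitAddCircle) (rad ψ q) q ∩ E (γ : UnitAddCircle) (rad ψ r) r = ∅ ∨
      (ψ q = 0 ∧ ψ r = 0) := by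
  by_cases h0 : ψ q = 0 ∧ ψ r = 0
  · exact Or.inr h0
  left
  apply disjoint_E
  unfold Near at h
  rw [not_lt] at h
  have hg : 0 < Nat.gcd q r := Nat.gcd_pos_of_pos_left _ hq
  have hA : 0 < red q r := Nat.div_pos (Nat.le_of_dvd hq (Nat.gcd_dvd_left q r)) hg
  have hB : 0 < red r q := by
    unfold red
    rw [Nat.gcd_comm]
    exact Nat.div_pos (Nat.le_of_dvd hr (Nat.gcd_dvd_right q r)) hg
  have e1 : ((q / Nat.gcd q r : ℕ) : ℤ) • (γ : UnitAddCircle)
      - ((r / Nat.gcd q r : ℕ) : ℤ) • (γ : UnitAddCircle)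
      = ((((red q r : ℝ) - (red r q : ℝ)) * γ : ℝ) : UnitAddCircle) := by
    have : r / Nat.gcd q r = red r q := by unfold red; rw [Nat.gcd_comm]
    rw [this]
    change ((red q r : ℕ) : ℤ) • (γ : UnitAddCircle) - ((red r q : ℕ) : ℤ) • (γ : UnitAddCircle) = _
    rw [natCast_zsmul, natCast_zsmul, ← AddCircle.coe_nsmul, ← AddCircle.coe_nsmul,
      ← AddCircle.coe_sub]
    congr 1
    simp only [nsmul_eq_mul]
    ring
  rw [e1, norm_eq_nd]
  have e2 : ((r / Nat.gcd q r : ℕ) : ℝ) = (red r q : ℝ) := by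
    unfold red; rw [Nat.gcd_comm]
  have e3 : ((q / Nat.gcd q r : ℕ) : ℝ) = (red q r : ℝ) := rfl
  rw [e2, e3]
  have hAR : (0 : ℝ) < red q r := by exact_mod_cast hA
  have hBR : (0 : ℝ) < red r q := by exact_mod_cast hB
  have l1 : ∀ s, rad ψ s ≤ ψ s / 2 := by
    intro s; unfold rad
    have := min_le_left (ψ s) 1
    linarith
  have hpos : 0 < (red r q : ℝ) * ψ q + (red q r : ℝ) * ψ r := by
    rcases lt_or_eq_of_le (hψ q) with hq1 | hq1
    · have := mul_pos hBR hq1
      have := mul_nonneg hAR.le (hψ r)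
      linarith
    · rcases lt_or_eq_of_le (hψ r) with hr1 | hr1
      · have := mul_pos hAR hr1
        have := mul_nonneg hBR.le (hψ q)
        linarith
      · exact absurd ⟨hq1.symm, hr1.symm⟩ h0
  have m1 := mul_le_mul_of_nonneg_left (l1 q) hBR.le
  have m2 := mul_le_mul_of_nonneg_left (l1 r) hAR.le
  linarith

lemma key (γ : ℝ) (ψ : ℕ → ℝ) (hψ : ∀ q, 0 ≤ ψ q) (A : Finset ℕ) (hA : ∀ q ∈ A, 0 < q) :
    volume.real {x : UnitAddCircle | ∀ q ∈ A, x ∉ E (γ : UnitAddCircle) (rad ψ q) q}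
      * (∑ q ∈ A, min (ψ q) 1) ^ 2 ≤ ∑ q ∈ A, min (ψ q) 1 + 2 * coinc γ ψ A := by
  classical
  have hprob : IsProbabilityMeasure (volume : Measure UnitAddCircle) := ⟨by simp⟩
  have hw : ∀ s, 0 ≤ min (ψ s) 1 := fun s => le_min (hψ s) zero_le_one
  have hr0 : ∀ s, 0 ≤ rad ψ s := fun s => div_nonneg (hw s) (by norm_num)
  have hr1 : ∀ s, 2 * rad ψ s ≤ 1 := by
    intro s
    have := min_le_right (ψ s) 1
    unfold rad; linarith
  have h2 : ∀ s, 2 * rad ψ s = min (ψ s) 1 := by intro s; unfold rad; ring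
  set S : ℕ → Set UnitAddCircle := fun q => E (γ : UnitAddCircle) (rad ψ q) q with hS
  have hSm : ∀ q, MeasurableSet (S q) := fun q => measurable_E _ _ _
  have hvol : ∑ q ∈ A, volume.real (S q) = ∑ q ∈ A, min (ψ q) 1 := by
    apply Finset.sum_congr rfl
    intro q hq
    rw [← h2 q]
    exact real_E _ (hr0 q) (hr1 q) (hA q hq)
  have h := second_moment (volume : Measure UnitAddCircle) A S hSm
  rw [hvol] at h
  set m := ∑ q ∈ A, min (ψ q) 1 with hm
  have hsym := sum_symm A (fun q r => volume.real (S q ∩ S r))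
    (fun q r => by rw [inter_comm])
  have hdiag : ∑ q ∈ A, volume.real (S q ∩ S q) = m := by
    rw [← hvol]; simp [inter_self]
  have hm2 : m ^ 2 = ∑ q ∈ A, ∑ r ∈ A, min (ψ q) 1 * min (ψ r) 1 := by
    rw [sq, hm, Finset.sum_mul_sum]
  have hsymm := sum_symm A (fun q r => min (ψ q) 1 * min (ψ r) 1) (fun q r => mul_comm _ _)
  have hoff : ∑ q ∈ A, ∑ r ∈ A, (if r < q then volume.real (S q ∩ S r) else 0)
      ≤ ∑ q ∈ A, ∑ r ∈ A, (if r < q then min (ψ q) 1 * min (ψ r) 1 else 0) + coinc γ ψ A := by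
    unfold coinc
    rw [← Finset.sum_add_distrib]
    apply Finset.sum_le_sum
    intro q hq
    rw [← Finset.sum_add_distrib]
    apply Finset.sum_le_sum
    intro r hr
    by_cases hlt : r < q
    · rw [if_pos hlt, if_pos hlt]
      by_cases hn : Near γ ψ q r
      · rw [if_pos ⟨hlt, hn⟩]
        exact pair_bound γ ψ hψ (hA q hq) (hA r hr)
      · rw [if_neg (fun h => hn h.2), add_zero]
        rcases not_near γ ψ hψ (hA q hq) (hA r hr) hn with h0 | h0
        · have : S q ∩ S r = ∅ := h0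
          rw [this, measureReal_empty]
          exact mul_nonneg (hw q) (hw r)
        · have hS0 : volume.real (S q ∩ S r) ≤ volume.real (S q) :=
            measureReal_mono inter_subset_left
          have : volume.real (S q) = min (ψ q) 1 := by
            rw [← h2 q]
            exact real_E _ (hr0 q) (hr1 q) (hA q hq)
          rw [this, h0.1] at hS0
          rw [h0.1, h0.2]
          simpa using hS0
    · rw [if_neg hlt, if_neg hlt, if_neg (fun h => hlt h.1)]; simp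
  have hdiag2 : 0 ≤ ∑ q ∈ A, min (ψ q) 1 * min (ψ q) 1 :=
    Finset.sum_nonneg (fun q _ => mul_nonneg (hw q) (hw q))
  have hfin : ∑ i ∈ A, ∑ j ∈ A, volume.real (S i ∩ S j) - m ^ 2 ≤ m + 2 * coinc γ ψ A := by
    rw [hsym, hdiag, hm2, hsymm]
    linarith
  exact h.trans hfin

lemma coinc_nonneg (γ : ℝ) (ψ : ℕ → ℝ) (hψ : ∀ q, 0 ≤ ψ q) (A : Finset ℕ) :
    0 ≤ coinc γ ψ A := by
  classical
  unfold coinc
  apply Finset.sum_nonneg
  intro q _
  apply Finset.sum_nonneg
  intro r _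
  have hw : ∀ s, 0 ≤ min (ψ s) 1 := fun s => le_min (hψ s) zero_le_one
  split_ifs
  · apply mul_nonneg (by positivity)
    exact le_min (div_nonneg (hw q) (by positivity)) (div_nonneg (hw r) (by positivity))
  · exact le_rfl

lemma tail_null (γ : ℝ) (ψ : ℕ → ℝ) (hψ : ∀ q, 0 ≤ ψ q) (hc : Crit γ ψ) (N : ℕ) :
    volume {x : UnitAddCircle | ∀ q, N < q → x ∉ E (γ : UnitAddCircle) (rad ψ q) q} = 0 := by
  have hprob : IsProbabilityMeasure (volume : Measure UnitAddCircle) := ⟨by simp⟩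
  set Z := {x : UnitAddCircle | ∀ q, N < q → x ∉ E (γ : UnitAddCircle) (rad ψ q) q} with hZ
  have hbound : ∀ K : ℝ, 1 ≤ K → volume.real Z ≤ 3 / K := by
    intro K hK
    obtain ⟨A, hA1, hA2, hA3⟩ := hc N K
    have hApos : ∀ q ∈ A, 0 < q := fun q hq => lt_of_le_of_lt (Nat.zero_le _) (hA1 q hq)
    have h := key γ ψ hψ A hApos
    set m := ∑ q ∈ A, min (ψ q) 1 with hm
    have hmpos : 0 < m := by linarith
    have hKpos : 0 < K := by linarith
    have hsub : Z ⊆ {x : UnitAddCircle | ∀ q ∈ A, x ∉ E (γ : UnitAddCircle) (rad ψ q) q} := by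
      intro x hx q hq
      exact hx q (hA1 q hq)
    have hmono : volume.real Z ≤
        volume.real {x : UnitAddCircle | ∀ q ∈ A, x ∉ E (γ : UnitAddCircle) (rad ψ q) q} :=
      measureReal_mono hsub
    have h1 : volume.real Z * m ^ 2 ≤ m + 2 * coinc γ ψ A :=
      (mul_le_mul_of_nonneg_right hmono (sq_nonneg m)).trans h
    have h2 : coinc γ ψ A ≤ m ^ 2 / K := by
      rw [le_div_iff₀ hKpos]; linarith [mul_comm K (coinc γ ψ A)]
    have h3 : m ≤ m ^ 2 / K := by
      rw [le_div_iff₀ hKpos]; nlinarith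
    have h4 : volume.real Z * m ^ 2 ≤ 3 / K * m ^ 2 := by
      calc volume.real Z * m ^ 2 ≤ m + 2 * coinc γ ψ A := h1
        _ ≤ m ^ 2 / K + 2 * (m ^ 2 / K) := by linarith
        _ = 3 / K * m ^ 2 := by ring
    exact le_of_mul_le_mul_right h4 (by positivity)
  have hzero : volume.real Z ≤ 0 := by
    apply le_of_forall_pos_le_add
    intro ε hε
    have := hbound (max 1 (3 / ε)) (le_max_left _ _)
    refine this.trans ?_
    rw [zero_add, div_le_iff₀ (by positivity)]
    have h5 : 3 / ε ≤ max 1 (3 / ε) := le_max_right _ _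
    calc (3 : ℝ) = ε * (3 / ε) := by field_simp
      _ ≤ ε * max 1 (3 / ε) := mul_le_mul_of_nonneg_left h5 hε.le
  have h0 : volume.real Z = 0 := le_antisymm hzero measureReal_nonneg
  rw [measureReal_def, ENNReal.toReal_eq_zero_iff] at h0
  rcases h0 with h0 | h0
  · exact h0
  · exact absurd h0 (measure_ne_top _ _)

lemma preimage_null {Z : Set UnitAddCircle} (hZ : volume Z = 0) :
    volume (((↑) : ℝ → UnitAddCircle) ⁻¹' Z) = 0 := by
  have h1 : ∀ n : ℤ, (volume.restrict (Ioc (n : ℝ) (n + 1)))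
      (((↑) : ℝ → UnitAddCircle) ⁻¹' Z) = 0 := by
    intro n
    have hmp := UnitAddCircle.measurePreserving_mk (n : ℝ)
    exact hmp.quasiMeasurePreserving.preimage_null hZ
  have h2 : (((↑) : ℝ → UnitAddCircle) ⁻¹' Z)
      = ⋃ n : ℤ, ((((↑) : ℝ → UnitAddCircle) ⁻¹' Z) ∩ Ioc (n : ℝ) (n + 1)) := by
    rw [← inter_iUnion, iUnion_Ioc_intCast ℝ, inter_univ]
  rw [h2]
  apply measure_iUnion_null
  intro n
  have := h1 n
  rwa [Measure.restrict_apply' measurableSet_Ioc] at this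

theorem crit_full (γ : ℝ) (ψ : ℕ → ℝ) (hψ : ∀ q, 0 ≤ ψ q) (hc : Crit γ ψ) :
    volume (W γ ψ)ᶜ = 0 := by
  set Z := ⋃ N : ℕ, {x : UnitAddCircle | ∀ q, N < q → x ∉ E (γ : UnitAddCircle) (rad ψ q) q}
    with hZ
  set B := ⋃ q : ℕ, (if 0 < q then E (γ : UnitAddCircle) 0 q else ∅) with hB
  have hZ0 : volume Z = 0 := measure_iUnion_null (fun N => tail_null γ ψ hψ hc N)
  have hB0 : volume B = 0 := by
    apply measure_iUnion_null
    intro q
    split_ifs with hq
    · rw [vol_E _ (by norm_num) hq]; simp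
    · exact measure_empty
  have hZB : volume (Z ∪ B) = 0 := measure_union_null hZ0 hB0
  have hpre := preimage_null hZB
  refine measure_mono_null ?_ hpre
  intro x hx
  by_contra hnot
  apply hx
  have hxZ : (x : UnitAddCircle) ∉ Z := fun h => hnot (Or.inl h)
  have hxB : (x : UnitAddCircle) ∉ B := fun h => hnot (Or.inr h)
  change {q : ℕ | 0 < q ∧ nd (q * x - γ) < ψ q}.Infinite
  apply Set.infinite_of_forall_exists_gt
  intro N
  have h1 : ¬ ∀ q, N < q → (x : UnitAddCircle) ∉ E (γ : UnitAddCircle) (rad ψ q) q := by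
    intro h
    exact hxZ (mem_iUnion.2 ⟨N, h⟩)
  push Not at h1
  obtain ⟨q, hNq, hq⟩ := h1
  have hq0 : 0 < q := lt_of_le_of_lt (Nat.zero_le _) hNq
  refine ⟨q, ⟨hq0, ?_⟩, hNq⟩
  have hnorm : ‖q • (x : UnitAddCircle) - (γ : UnitAddCircle)‖ = nd (q * x - γ) := by
    rw [← AddCircle.coe_nsmul, ← AddCircle.coe_sub, nsmul_eq_mul]
    exact norm_eq_nd _
  have hmem : ‖q • (x : UnitAddCircle) - (γ : UnitAddCircle)‖ ≤ rad ψ q := hq
  rw [hnorm] at hmem
  have hψq : 0 < ψ q := by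
    rcases lt_or_eq_of_le (hψ q) with h | h
    · exact h
    · exfalso
      apply hxB
      refine mem_iUnion.2 ⟨q, ?_⟩
      rw [if_pos hq0]
      change ‖q • (x : UnitAddCircle) - (γ : UnitAddCircle)‖ ≤ 0
      rw [hnorm]
      refine hmem.trans (le_of_eq ?_)
      unfold rad
      rw [← h]
      simp
  have : rad ψ q < ψ q := by
    unfold rad
    have := min_le_left (ψ q) 1
    linarith
  linarith

/-! ### the divisor sum -/

lemma gcd_sum (q : ℕ) : ∑ r ∈ Finset.Ioc 0 q, Nat.gcd q r ≤ q * q.divisors.card := by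
  classical
  rcases Nat.eq_zero_or_pos q with h0 | hq
  · subst h0; simp
  calc ∑ r ∈ Finset.Ioc 0 q, Nat.gcd q r
      ≤ ∑ r ∈ Finset.Ioc 0 q, ∑ d ∈ q.divisors, (if d ∣ r then d else 0) := by
        apply Finset.sum_le_sum
        intro r _
        have hmem : Nat.gcd q r ∈ q.divisors :=
          Nat.mem_divisors.2 ⟨Nat.gcd_dvd_left q r, hq.ne'⟩
        have := Finset.single_le_sum (f := fun d => if d ∣ r then d else 0)
          (fun _ _ => Nat.zero_le _) hmem
        refine le_trans (le_of_eq ?_) this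
        exact (if_pos (Nat.gcd_dvd_right q r)).symm
    _ = ∑ d ∈ q.divisors, ∑ r ∈ Finset.Ioc 0 q, (if d ∣ r then d else 0) := Finset.sum_comm
    _ = ∑ d ∈ q.divisors, q := by
        apply Finset.sum_congr rfl
        intro d hd
        have hdq := (Nat.mem_divisors.1 hd).1
        rw [← Finset.sum_filter, Finset.sum_const, Nat.Ioc_filter_dvd_card_eq_div, smul_eq_mul,
          Nat.div_mul_cancel hdq]
    _ = q * q.divisors.card := by rw [Finset.sum_const, smul_eq_mul, mul_comm]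

/-- general bound for the coincidences -/
lemma coinc_le (γ : ℝ) (ψ : ℕ → ℝ) (hψ : ∀ q, 0 ≤ ψ q) (A : Finset ℕ) (C : ℝ)
    (hA : ∀ q ∈ A, 0 < q)
    (h : ∀ q ∈ A, ((∑ r ∈ A, if r < q then Nat.gcd q r else 0 : ℕ) : ℝ) ≤ C * q) :
    coinc γ ψ A ≤ C * ∑ q ∈ A, min (ψ q) 1 := by
  classical
  have hw : ∀ s, 0 ≤ min (ψ s) 1 := fun s => le_min (hψ s) zero_le_one
  unfold coinc
  rw [Finset.mul_sum]
  apply Finset.sum_le_sum
  intro q hq
  have hqR : (0 : ℝ) < q := by exact_mod_cast hA q hq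
  calc ∑ r ∈ A, (if r < q ∧ Near γ ψ q r then
      (Nat.gcd q r : ℝ) * min (min (ψ q) 1 / q) (min (ψ r) 1 / r) else 0)
      ≤ ∑ r ∈ A, (if r < q then (Nat.gcd q r : ℝ) else 0) * (min (ψ q) 1 / q) := by
        apply Finset.sum_le_sum
        intro r _
        by_cases hlt : r < q
        · rw [if_pos hlt]
          have hnn : 0 ≤ (Nat.gcd q r : ℝ) * (min (ψ q) 1 / q) :=
            mul_nonneg (by positivity) (div_nonneg (hw q) hqR.le)
          split_ifs
          · exact mul_le_mul_of_nonneg_left (min_le_left _ _) (by positivity)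
          · exact hnn
        · rw [if_neg (fun h => hlt h.1), if_neg hlt, zero_mul]
    _ = ((∑ r ∈ A, if r < q then Nat.gcd q r else 0 : ℕ) : ℝ) * (min (ψ q) 1 / q) := by
        rw [← Finset.sum_mul]
        push_cast
        rfl
    _ ≤ C * q * (min (ψ q) 1 / q) :=
        mul_le_mul_of_nonneg_right (h q hq) (div_nonneg (hw q) hqR.le)
    _ = C * min (ψ q) 1 := by field_simp

lemma coinc_div (γ : ℝ) (ψ : ℕ → ℝ) (hψ : ∀ q, 0 ≤ ψ q) (A : Finset ℕ) (D : ℕ)
    (hA : ∀ q ∈ A, 0 < q ∧ q.divisors.card ≤ D) :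
    coinc γ ψ A ≤ D * ∑ q ∈ A, min (ψ q) 1 := by
  classical
  apply coinc_le γ ψ hψ A D (fun q hq => (hA q hq).1)
  intro q hq
  have h1 : (∑ r ∈ A, if r < q then Nat.gcd q r else 0) ≤ ∑ r ∈ Finset.Ioc 0 q, Nat.gcd q r := by
    rw [← Finset.sum_filter]
    apply Finset.sum_le_sum_of_subset
    intro r hr
    rw [Finset.mem_filter] at hr
    rw [Finset.mem_Ioc]
    exact ⟨(hA r hr.1).1, hr.2.le⟩
  have h2 := h1.trans (gcd_sum q)
  have h3 : q * q.divisors.card ≤ q * D := Nat.mul_le_mul_left q (hA q hq).2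
  have h4 := h2.trans h3
  calc ((∑ r ∈ A, if r < q then Nat.gcd q r else 0 : ℕ) : ℝ) ≤ ((q * D : ℕ) : ℝ) := by
        exact_mod_cast h4
    _ = D * q := by push_cast; ring

lemma crit_of_divMass (γ : ℝ) (ψ : ℕ → ℝ) (hψ : ∀ q, 0 ≤ ψ q) (h : DivMass ψ) : Crit γ ψ := by
  classical
  intro N K
  have hw : ∀ s, 0 ≤ min (ψ s) 1 := fun s => le_min (hψ s) zero_le_one
  obtain ⟨D, A, hA, hsum⟩ := h (|K| + 1 + N)
  have hK0 : 0 ≤ |K| := abs_nonneg K
  have hD : 1 ≤ D := by
    rcases A.eq_empty_or_nonempty with he | ⟨q, hq⟩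
    · rw [he] at hsum
      simp only [Finset.sum_empty] at hsum
      have : 0 ≤ (|K| + 1 + N) * (D : ℝ) := by positivity
      linarith
    · have h1 := (hA q hq).2
      have h2 : 0 < q.divisors.card :=
        Finset.card_pos.2 ⟨1, Nat.one_mem_divisors.2 (hA q hq).1.ne'⟩
      omega
  have hDR : (1 : ℝ) ≤ D := by exact_mod_cast hD
  refine ⟨A.filter (fun q => N < q), fun q hq => (Finset.mem_filter.1 hq).2, ?_, ?_⟩
  all_goals
    have hsplit : ∑ q ∈ A.filter (fun q => N < q), min (ψ q) 1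
        + ∑ q ∈ A.filter (fun q => ¬ N < q), min (ψ q) 1 = ∑ q ∈ A, min (ψ q) 1 :=
      Finset.sum_filter_add_sum_filter_not A _ _
    have hsmall : ∑ q ∈ A.filter (fun q => ¬ N < q), min (ψ q) 1 ≤ N := by
      calc ∑ q ∈ A.filter (fun q => ¬ N < q), min (ψ q) 1
          ≤ ∑ q ∈ A.filter (fun q => ¬ N < q), (1 : ℝ) :=
            Finset.sum_le_sum (fun q _ => min_le_right _ _)
        _ = ((A.filter (fun q => ¬ N < q)).card : ℝ) := by simp
        _ ≤ N := by
            have : (A.filter (fun q => ¬ N < q)) ⊆ Finset.Ioc 0 N := by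
              intro q hq
              rw [Finset.mem_filter] at hq
              rw [Finset.mem_Ioc]
              exact ⟨(hA q hq.1).1, not_lt.1 hq.2⟩
            have h3 := Finset.card_le_card this
            rw [Nat.card_Ioc] at h3
            exact_mod_cast h3
    have hbig : (|K| + 1) * D ≤ ∑ q ∈ A.filter (fun q => N < q), min (ψ q) 1 := by
      have : (N : ℝ) ≤ N * D := by
        have hN : (0 : ℝ) ≤ N := by positivity
        nlinarith
      nlinarith
  · have : K ≤ |K| := le_abs_self K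
    nlinarith
  · have hc := coinc_div γ ψ hψ (A.filter (fun q => N < q)) D
      (fun q hq => hA q (Finset.mem_filter.1 hq).1)
    set m := ∑ q ∈ A.filter (fun q => N < q), min (ψ q) 1 with hm
    have hm0 : 0 ≤ m := Finset.sum_nonneg (fun q _ => hw q)
    have hcn := coinc_nonneg γ ψ hψ (A.filter (fun q => N < q))
    calc K * coinc γ ψ (A.filter (fun q => N < q))
        ≤ |K| * coinc γ ψ (A.filter (fun q => N < q)) :=
          mul_le_mul_of_nonneg_right (le_abs_self K) hcn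
      _ ≤ |K| * (D * m) := mul_le_mul_of_nonneg_left hc hK0
      _ = (|K| * D) * m := by ring
      _ ≤ m * m := by
          apply mul_le_mul_of_nonneg_right _ hm0
          nlinarith
      _ = m ^ 2 := by ring

/-- unbounded partial sums of the truncated function -/
lemma unbounded_trunc (ψ : ℕ → ℝ) (hψ : ∀ q, 0 ≤ ψ q) (h : ¬ Summable ψ) (N : ℕ) (K : ℝ) :
    ∃ M, K < ∑ q ∈ (Finset.range M).filter (fun q => N < q ∧ ψ q ≠ 0), min (ψ q) 1 := by
  classical
  have hw : ∀ s, 0 ≤ min (ψ s) 1 := fun s => le_min (hψ s) zero_le_one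
  have hns : ¬ Summable (fun q => min (ψ q) 1) := by
    intro hs
    apply h
    have ht := hs.tendsto_cofinite_zero
    have hev : ∀ᶠ q in Filter.cofinite, min (ψ q) 1 < 1 :=
      ht.eventually (gt_mem_nhds zero_lt_one)
    refine (summable_congr_cofinite ?_).1 hs
    filter_upwards [hev] with q hq
    rcases min_lt_iff.1 hq with h1 | h1
    · exact min_eq_left h1.le
    · exact absurd h1 (lt_irrefl _)
  have htend := (not_summable_iff_tendsto_nat_atTop_of_nonneg hw).1 hns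
  obtain ⟨M, hM⟩ := (htend.eventually (Filter.eventually_gt_atTop (K + (N + 1)))).exists
  refine ⟨M, ?_⟩
  have hsplit : ∑ q ∈ (Finset.range M).filter (fun q => N < q ∧ ψ q ≠ 0), min (ψ q) 1
      + ∑ q ∈ (Finset.range M).filter (fun q => ¬ (N < q ∧ ψ q ≠ 0)), min (ψ q) 1
      = ∑ q ∈ Finset.range M, min (ψ q) 1 :=
    Finset.sum_filter_add_sum_filter_not _ _ _
  have hsmall : ∑ q ∈ (Finset.range M).filter (fun q => ¬ (N < q ∧ ψ q ≠ 0)), min (ψ q) 1
      ≤ N + 1 := by
    calc ∑ q ∈ (Finset.range M).filter (fun q => ¬ (N < q ∧ ψ q ≠ 0)), min (ψ q) 1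
        ≤ ∑ q ∈ (Finset.range M).filter (fun q => ¬ (N < q ∧ ψ q ≠ 0)),
            (if q < N + 1 then (1 : ℝ) else 0) := by
          apply Finset.sum_le_sum
          intro q hq
          rw [Finset.mem_filter] at hq
          by_cases hqN : q < N + 1
          · rw [if_pos hqN]; exact min_le_right _ _
          · rw [if_neg hqN]
            have h0 : ψ q = 0 := by
              by_contra h0
              exact hq.2 ⟨by omega, h0⟩
            rw [h0]; simp
      _ = (((Finset.range M).filter (fun q => ¬ (N < q ∧ ψ q ≠ 0))).filter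
            (fun q => q < N + 1)).card := by
          rw [← Finset.sum_filter]; simp
      _ ≤ ((Finset.range (N + 1)).card : ℝ) := by
          have : ((Finset.range M).filter (fun q => ¬ (N < q ∧ ψ q ≠ 0))).filter
            (fun q => q < N + 1) ⊆ Finset.range (N + 1) := by
            intro q hq
            rw [Finset.mem_filter] at hq
            exact Finset.mem_range.2 hq.2
          exact_mod_cast Finset.card_le_card this
      _ = N + 1 := by simp
  linarith

/-- supports with linearly bounded gcd sums -/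
lemma crit_of_gcd (γ : ℝ) (ψ : ℕ → ℝ) (hψ : ∀ q, 0 ≤ ψ q) (hns : ¬ Summable ψ) (C : ℝ)
    (hC : ∀ q, 0 < q → ψ q ≠ 0 →
      ((∑ r ∈ (Finset.range q).filter (fun r => 0 < r ∧ ψ r ≠ 0), Nat.gcd q r : ℕ) : ℝ) ≤ C * q) :
    Crit γ ψ := by
  classical
  intro N K
  have hw : ∀ s, 0 ≤ min (ψ s) 1 := fun s => le_min (hψ s) zero_le_one
  obtain ⟨M, hM⟩ := unbounded_trunc ψ hψ hns N (|K| * |C| + |K|)
  set A := (Finset.range M).filter (fun q => N < q ∧ ψ q ≠ 0) with hAdef
  have hApos : ∀ q ∈ A, 0 < q := fun q hq =>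
    lt_of_le_of_lt (Nat.zero_le _) (Finset.mem_filter.1 hq).2.1
  have hK0 := abs_nonneg K
  have hC0 := abs_nonneg C
  refine ⟨A, fun q hq => (Finset.mem_filter.1 hq).2.1, ?_, ?_⟩
  · have : K ≤ |K| := le_abs_self K
    have : 0 ≤ |K| * |C| := by positivity
    linarith
  · have hc : coinc γ ψ A ≤ |C| * ∑ q ∈ A, min (ψ q) 1 := by
      apply coinc_le γ ψ hψ A |C| hApos
      intro q hq
      have hq' := (Finset.mem_filter.1 hq).2
      have h1 : (∑ r ∈ A, if r < q then Nat.gcd q r else 0)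
          ≤ ∑ r ∈ (Finset.range q).filter (fun r => 0 < r ∧ ψ r ≠ 0), Nat.gcd q r := by
        rw [← Finset.sum_filter]
        apply Finset.sum_le_sum_of_subset
        intro r hr
        rw [Finset.mem_filter] at hr
        rw [Finset.mem_filter, Finset.mem_range]
        exact ⟨hr.2, hApos r hr.1, (Finset.mem_filter.1 hr.1).2.2⟩
      calc ((∑ r ∈ A, if r < q then Nat.gcd q r else 0 : ℕ) : ℝ)
          ≤ ((∑ r ∈ (Finset.range q).filter (fun r => 0 < r ∧ ψ r ≠ 0), Nat.gcd q r : ℕ) : ℝ) := by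
            exact_mod_cast h1
        _ ≤ C * q := hC q (hApos q hq) hq'.2
        _ ≤ |C| * q := mul_le_mul_of_nonneg_right (le_abs_self C) (by positivity)
    set m := ∑ q ∈ A, min (ψ q) 1 with hm
    have hm0 : 0 ≤ m := Finset.sum_nonneg (fun q _ => hw q)
    have hcn := coinc_nonneg γ ψ hψ A
    calc K * coinc γ ψ A ≤ |K| * coinc γ ψ A :=
          mul_le_mul_of_nonneg_right (le_abs_self K) hcn
      _ ≤ |K| * (|C| * m) := mul_le_mul_of_nonneg_left hc hK0
      _ = (|K| * |C|) * m := by ring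
      _ ≤ m * m := by
          apply mul_le_mul_of_nonneg_right _ hm0
          linarith
      _ = m ^ 2 := by ring

lemma divMass_of_support (ψ : ℕ → ℝ) (hψ : ∀ q, 0 ≤ ψ q) (D : ℕ)
    (hD : ∀ q, 0 < q → ψ q ≠ 0 → q.divisors.card ≤ D) (hns : ¬ Summable ψ) : DivMass ψ := by
  classical
  intro K
  obtain ⟨M, hM⟩ := unbounded_trunc ψ hψ hns 0 (K * D)
  refine ⟨D, (Finset.range M).filter (fun q => 0 < q ∧ ψ q ≠ 0), ?_, hM⟩
  intro q hq
  have := (Finset.mem_filter.1 hq).2
  exact ⟨this.1, hD q this.1 this.2⟩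

lemma not_summable_of_phi (ψ : ℕ → ℝ) (hψ : ∀ q, 0 ≤ ψ q)
    (h : ¬ Summable (fun q : ℕ => (Nat.totient q : ℝ) / q * ψ q)) : ¬ Summable ψ := by
  intro hs
  apply h
  refine Summable.of_nonneg_of_le (fun q => ?_) (fun q => ?_) hs
  · exact mul_nonneg (by positivity) (hψ q)
  · have h1 : (Nat.totient q : ℝ) / q ≤ 1 := by
      apply div_le_one_of_le₀ _ (by positivity)
      exact_mod_cast Nat.totient_le q
    calc (Nat.totient q : ℝ) / q * ψ q ≤ 1 * ψ q := mul_le_mul_of_nonneg_right h1 (hψ q)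
      _ = ψ q := one_mul _

end Vale.Agent.P028
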