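import Vale.Agent.P028.Circle

open MeasureTheory Set

namespace Vale.Agent.P028

lemma second_moment {Ω : Type*} [MeasurableSpace Ω] (μ : Measure Ω) [IsProbabilityMeasure μ]
    {ι : Type*} (A : Finset ι) (S : ι → Set Ω) (hS : ∀ i, MeasurableSet (S i)) :
    μ.real {x | ∀ i ∈ A, x ∉ S i} * (∑ i ∈ A, μ.real (S i)) ^ 2
      ≤ ∑ i ∈ A, ∑ j ∈ A, μ.real (S i ∩ S j) - (∑ i ∈ A, μ.real (S i)) ^ 2 := by
  classical
  set m := ∑ i ∈ A, μ.real (S i) with hm
  have hint : ∀ s : Set Ω, MeasurableSet s → Integrable (s.indicator (fun _ => (1 : ℝ))) μ := by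
    intro s hs
    exact (integrable_const (1 : ℝ)).indicator hs
  have hval : ∀ s : Set Ω, MeasurableSet s → ∫ x, s.indicator (fun _ => (1 : ℝ)) x ∂μ = μ.real s := by
    intro s hs
    rw [integral_indicator hs]
    simp
  set X : Ω → ℝ := fun x => ∑ i ∈ A, (S i).indicator (fun _ => (1 : ℝ)) x with hX
  set Y : Ω → ℝ := fun x => ∑ i ∈ A, ∑ j ∈ A, (S i ∩ S j).indicator (fun _ => (1 : ℝ)) x with hY
  have hXint : Integrable X μ := by
    apply integrable_finsetSum
    intro i _
    exact hint _ (hS i)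
  have hYint : Integrable Y μ := by
    apply integrable_finsetSum
    intro i _
    apply integrable_finsetSum
    intro j _
    exact hint _ ((hS i).inter (hS j))
  have hXv : ∫ x, X x ∂μ = m := by
    simp only [hX]
    rw [integral_finsetSum _ (fun i _ => hint _ (hS i))]
    exact Finset.sum_congr rfl (fun i _ => hval _ (hS i))
  have hYv : ∫ x, Y x ∂μ = ∑ i ∈ A, ∑ j ∈ A, μ.real (S i ∩ S j) := by
    simp only [hY]
    rw [integral_finsetSum]
    · apply Finset.sum_congr rfl
      intro i _
      rw [integral_finsetSum _ (fun j _ => hint _ ((hS i).inter (hS j)))]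
      exact Finset.sum_congr rfl (fun j _ => hval _ ((hS i).inter (hS j)))
    · intro i _
      apply integrable_finsetSum
      intro j _
      exact hint _ ((hS i).inter (hS j))
  have hXX : ∀ x, X x * X x = Y x := by
    intro x
    simp only [hX, hY]
    rw [Finset.sum_mul_sum]
    apply Finset.sum_congr rfl
    intro i _
    apply Finset.sum_congr rfl
    intro j _
    by_cases h1 : x ∈ S i
    · by_cases h2 : x ∈ S j
      · rw [indicator_of_mem h1, indicator_of_mem h2, indicator_of_mem (mem_inter h1 h2)]; simp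
      · have h3 : x ∉ S i ∩ S j := fun h => h2 h.2
        rw [indicator_of_notMem h2, indicator_of_notMem h3]; simp
    · have h3 : x ∉ S i ∩ S j := fun h => h1 h.1
      rw [indicator_of_notMem h1, indicator_of_notMem h3]; simp
  set Z := {x | ∀ i ∈ A, x ∉ S i} with hZ
  have hZm : MeasurableSet Z := by
    have : Z = ⋂ i ∈ A, (S i)ᶜ := by
      ext x; simp [hZ]
    rw [this]
    exact Finset.measurableSet_biInter A (fun i _ => (hS i).compl)
  have hle : ∀ x, m ^ 2 * Z.indicator (fun _ => (1 : ℝ)) x ≤ Y x - 2 * m * X x + m ^ 2 := by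
    intro x
    have h1 : Y x - 2 * m * X x + m ^ 2 = (X x - m) ^ 2 := by rw [← hXX x]; ring
    rw [h1]
    by_cases hx : x ∈ Z
    · have hX0 : X x = 0 := by
        simp only [hX]
        apply Finset.sum_eq_zero
        intro i hi
        exact indicator_of_notMem (hx i hi) _
      rw [indicator_of_mem hx, hX0]
      nlinarith
    · rw [indicator_of_notMem hx]
      nlinarith [sq_nonneg (X x - m)]
  have hmono := integral_mono (μ := μ) ((hint _ hZm).const_mul (m ^ 2))
    ((hYint.sub (hXint.const_mul (2 * m))).add (integrable_const (m ^ 2))) hle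
  have hL : ∫ x, m ^ 2 * Z.indicator (fun _ => (1 : ℝ)) x ∂μ = m ^ 2 * μ.real Z := by
    rw [integral_const_mul, hval _ hZm]
  have hR : ∫ x, (((Y - fun x => 2 * m * X x) + fun _ => m ^ 2) : Ω → ℝ) x ∂μ
      = ∑ i ∈ A, ∑ j ∈ A, μ.real (S i ∩ S j) - 2 * m * m + m ^ 2 := by
    rw [integral_add' (hYint.sub (hXint.const_mul (2 * m))) (integrable_const (m ^ 2)),
      integral_sub' hYint (hXint.const_mul (2 * m)), hYv, integral_const_mul, hXv]
    simp
  rw [hL] at hmono
  have hmono' : m ^ 2 * μ.real Z ≤ ∑ i ∈ A, ∑ j ∈ A, μ.real (S i ∩ S j) - 2 * m * m + m ^ 2 :=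
    hmono.trans (le_of_eq hR)
  nlinarith [hmono']

lemma sum_symm (A : Finset ℕ) (F : ℕ → ℕ → ℝ) (hF : ∀ q r, F q r = F r q) :
    ∑ q ∈ A, ∑ r ∈ A, F q r
      = ∑ q ∈ A, F q q + 2 * ∑ q ∈ A, ∑ r ∈ A, (if r < q then F q r else 0) := by
  classical
  have h1 : ∀ q r : ℕ, F q r = (if r = q then F q q else 0) + (if r < q then F q r else 0)
      + (if q < r then F q r else 0) := by
    intro q r
    rcases lt_trichotomy r q with h | h | h
    · rw [if_neg h.ne, if_pos h, if_neg (by omega)]; ring
    · subst h; simp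
    · rw [if_neg h.ne', if_neg (by omega), if_pos h]; ring
  have h2 : ∑ q ∈ A, ∑ r ∈ A, (if q < r then F q r else 0)
      = ∑ q ∈ A, ∑ r ∈ A, (if r < q then F q r else 0) := by
    rw [Finset.sum_comm]
    apply Finset.sum_congr rfl
    intro q _
    apply Finset.sum_congr rfl
    intro r _
    split_ifs with h
    · exact hF r q
    · rfl
  have h3 : ∑ q ∈ A, ∑ r ∈ A, (if r = q then F q q else 0) = ∑ q ∈ A, F q q := by
    apply Finset.sum_congr rfl
    intro q hq
    rw [Finset.sum_ite_eq' A q (fun _ => F q q), if_pos hq]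
  calc ∑ q ∈ A, ∑ r ∈ A, F q r
      = ∑ q ∈ A, ∑ r ∈ A, ((if r = q then F q q else 0) + (if r < q then F q r else 0)
        + (if q < r then F q r else 0)) :=
        Finset.sum_congr rfl (fun q _ => Finset.sum_congr rfl (fun r _ => h1 q r))
    _ = _ := by
        simp only [Finset.sum_add_distrib]
        rw [h2, h3]; ring

end Vale.Agent.P028
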